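import Vale.Agent.Lib.P227.Segment

/-!
P227, special case: the logarithmic Brunn-Minkowski inequality holds for every pair
`(K, K + [-v, v])`, where `K` is an arbitrary origin-symmetric convex body in `R^n`
(any dimension `n`) and `[-v, v]` is an arbitrary origin-symmetric segment.
-/

namespace Vale.Agent.Results.P227.SegmentSum

open MeasureTheory Vale.Agent.Lib.P227
open scoped Pointwise

theorem result (n : ℕ) (K : Set (Eu n)) (hK : IsConvexBody K) (hs : IsOriginSymmetric K)
    (v : Eu n) (lam : ℝ) (h0 : 0 ≤ lam) (h1 : lam ≤ 1) :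
    IsConvexBody (K + segment ℝ (-v) v) ∧ IsOriginSymmetric (K + segment ℝ (-v) v) ∧
      volume K ^ (1 - lam) * volume (K + segment ℝ (-v) v) ^ lam ≤
        volume (logComb K (K + segment ℝ (-v) v) lam) :=
  ⟨isConvexBody_add_segment hK v, isOriginSymmetric_add_segment hs v,
    logBM_add_segment K hK hs v lam h0 h1⟩

end Vale.Agent.Results.P227.SegmentSum
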